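import Vale.Agent.P032.S5.H724.BetaMoves
import Vale.Agent.P032.Words.H281.BetaN
import Vale.Agent.P032.Words.H984.OneW

/-!
# P032: joint words of a BETA pair: changes on one circle, the special time

`J2 q r`: the joint word of a hexagon `q` of the first circle and a hexagon `r` of the second one.
-/

open Set Filter Topology

noncomputable section

namespace Vale.Agent.P032.S5.H281

open Vale.Agent.P032.Words Vale.Agent.P032.Words.Scc
open Vale.Agent.P032.Words.Trie (zl vl jn LegB StepB PathM cz cv cJ cW Lk)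
open Vale.Agent.P032.S5.H724 (lz lv jl jl_facts nb_facts op_facts al_facts wB)

/-- joint word -/
def J2 (q r : Hx) : ℕ → ℕ := fun n => if hn : n < 6 then jl (q ⟨n, hn⟩) (r ⟨n, hn⟩) else 0

/-- legal pair of hexagons -/
structure L2 (q r : Hx) : Prop where
  lq : Leg4 q
  lr : Leg4 r
  cp : ∀ k, Nat.land (lz (q k)) (lv (r k)) = 0

variable {q q' r r' : Hx} {F : Fin 8 → Bool}

theorem J2_fin (q r : Hx) (k : Fin 6) : J2 q r k.val = jl (q k) (r k) := by
  unfold J2; rw [dif_pos k.isLt]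

theorem L2.leg (H : L2 q r) : LegB (J2 q r) := by
  have hq := H.lq
  have hr := H.lr
  refine ⟨fun k hk => ?_, ?_, ?_, ?_, ?_, ?_, ?_, ?_, ?_, ?_⟩
  · have := (jl_facts _ _ (H.cp ⟨k, hk⟩)).2.2.2
    have e := J2_fin q r ⟨k, hk⟩
    rw [← e] at this
    exact this
  · exact nb_facts _ _ _ _ (H.cp 0) (H.cp 1) (hq.1 0) (hr.1 0)
  · exact nb_facts _ _ _ _ (H.cp 1) (H.cp 2) (hq.1 1) (hr.1 1)
  · exact nb_facts _ _ _ _ (H.cp 2) (H.cp 3) (hq.1 2) (hr.1 2)
  · exact nb_facts _ _ _ _ (H.cp 3) (H.cp 4) (hq.1 3) (hr.1 3)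
  · exact nb_facts _ _ _ _ (H.cp 4) (H.cp 5) (hq.1 4) (hr.1 4)
  · exact nb_facts _ _ _ _ (H.cp 5) (H.cp 0) (hq.1 5) (hr.1 5)
  · exact op_facts _ _ _ _ (H.cp 0) (H.cp 3) (hq.2 0) (fun h => hq.2 3 ⟨h.2, h.1⟩) (hr.2 0)
      (fun h => hr.2 3 ⟨h.2, h.1⟩)
  · exact op_facts _ _ _ _ (H.cp 1) (H.cp 4) (hq.2 1) (fun h => hq.2 4 ⟨h.2, h.1⟩) (hr.2 1)
      (fun h => hr.2 4 ⟨h.2, h.1⟩)
  · exact op_facts _ _ _ _ (H.cp 2) (H.cp 5) (hq.2 2) (fun h => hq.2 5 ⟨h.2, h.1⟩) (hr.2 2)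
      (fun h => hr.2 5 ⟨h.2, h.1⟩)

theorem J2_upd_z (q r : Hx) (k : Fin 6) (l : Fin 4) :
    J2 (Function.update q k l) r = Function.update (J2 q r) k.val (jl l (r k)) := by
  funext n
  by_cases hn : n = k.val
  · subst hn
    rw [Function.update_self, J2_fin, Function.update_self]
  · rw [Function.update_of_ne hn]
    unfold J2
    by_cases h6 : n < 6
    · rw [dif_pos h6, dif_pos h6, Function.update_of_ne]
      intro he
      exact hn (congrArg Fin.val he)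
    · rw [dif_neg h6, dif_neg h6]

theorem J2_upd_v (q r : Hx) (k : Fin 6) (l : Fin 4) :
    J2 q (Function.update r k l) = Function.update (J2 q r) k.val (jl (q k) l) := by
  funext n
  by_cases hn : n = k.val
  · subst hn
    rw [Function.update_self, J2_fin, Function.update_self]
  · rw [Function.update_of_ne hn]
    unfold J2
    by_cases h6 : n < 6
    · rw [dif_pos h6, dif_pos h6, Function.update_of_ne]
      intro he
      exact hn (congrArg Fin.val he)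
    · rw [dif_neg h6, dif_neg h6]

theorem step_z {k : Fin 6} {l : Fin 4} (h1 : L2 q r) (h2 : L2 (Function.update q k l) r)
    (hne : q k ≠ l) (h23 : ¬ (q k = 2 ∧ l = 3)) (h32 : ¬ (q k = 3 ∧ l = 2)) :
    StepB (J2 q r) (J2 (Function.update q k l) r) := by
  have c2 := h2.cp k
  rw [Function.update_self] at c2
  have hl := h2.leg
  rw [J2_upd_z] at hl ⊢
  refine StepB.single k.isLt h1.leg hl ?_
  rw [J2_fin]
  exact al_facts _ _ _ _ (h1.cp k) c2 (Or.inr ⟨rfl, hne, h23, h32⟩)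

theorem step_v {k : Fin 6} {l : Fin 4} (h1 : L2 q r) (h2 : L2 q (Function.update r k l))
    (hne : r k ≠ l) (h23 : ¬ (r k = 2 ∧ l = 3)) (h32 : ¬ (r k = 3 ∧ l = 2)) :
    StepB (J2 q r) (J2 q (Function.update r k l)) := by
  have c2 := h2.cp k
  rw [Function.update_self] at c2
  have hl := h2.leg
  rw [J2_upd_v] at hl ⊢
  refine StepB.single k.isLt h1.leg hl ?_
  rw [J2_fin]
  exact al_facts _ _ _ _ (h1.cp k) c2 (Or.inl ⟨rfl, hne, h23, h32⟩)

/-- the counter on pairs of hexagons -/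
theorem cW_J2 (H : L2 q r) (H' : L2 q' r') : cW F (J2 q r) (J2 q' r') =
    (∑ k, cz F (q k).val (q' k).val) + ∑ k, cv F (r k).val (r' k).val := by
  have key : ∀ k : Fin 6, cJ F (J2 q r k.val) (J2 q' r' k.val) =
      cz F (q k).val (q' k).val + cv F (r k).val (r' k).val := by
    intro k
    rw [J2_fin, J2_fin]
    obtain ⟨-, e1, e2, -⟩ := jl_facts _ _ (H.cp k)
    obtain ⟨-, e3, e4, -⟩ := jl_facts _ _ (H'.cp k)
    unfold cJ
    rw [e1, e2, e3, e4]
  have k0 := key 0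
  have k1 := key 1
  have k2 := key 2
  have k3 := key 3
  have k4 := key 4
  have k5 := key 5
  have e : cW F (J2 q r) (J2 q' r') = cJ F (J2 q r (0 : Fin 6).val) (J2 q' r' (0 : Fin 6).val) +
    (cJ F (J2 q r (1 : Fin 6).val) (J2 q' r' (1 : Fin 6).val) +
    (cJ F (J2 q r (2 : Fin 6).val) (J2 q' r' (2 : Fin 6).val) +
    (cJ F (J2 q r (3 : Fin 6).val) (J2 q' r' (3 : Fin 6).val) +
    (cJ F (J2 q r (4 : Fin 6).val) (J2 q' r' (4 : Fin 6).val) +
      cJ F (J2 q r (5 : Fin 6).val) (J2 q' r' (5 : Fin 6).val))))) := rfl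
  rw [e, k0, k1, k2, k3, k4, k5, Fin.sum_univ_six, Fin.sum_univ_six]
  abel

theorem cz_self (F : Fin 8 → Bool) (a : ℕ) : cz F a a = 0 := by
  unfold cz
  have e : ∀ i j : ℕ, i ≠ j → ((Nat.beq a i && Nat.beq a j) || (Nat.beq a j && Nat.beq a i)) = false := by
    intro i j hij
    by_cases hi : a = i
    · subst hi
      have : Nat.beq a j = false := by
        rw [Bool.eq_false_iff]; intro h; exact hij (Nat.eq_of_beq_eq_true h)
      rw [this]; simp
    · have : Nat.beq a i = false := by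
        rw [Bool.eq_false_iff]; intro h; exact hi (Nat.eq_of_beq_eq_true h)
      rw [this]; simp
  rw [e 2 0 (by norm_num), e 3 1 (by norm_num), e 2 1 (by norm_num), e 3 0 (by norm_num)]
  rfl

theorem cv_self (F : Fin 8 → Bool) (a : ℕ) : cv F a a = 0 := by
  unfold cv
  have e : ∀ i j : ℕ, i ≠ j → ((Nat.beq a i && Nat.beq a j) || (Nat.beq a j && Nat.beq a i)) = false := by
    intro i j hij
    by_cases hi : a = i
    · subst hi
      have : Nat.beq a j = false := by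
        rw [Bool.eq_false_iff]; intro h; exact hij (Nat.eq_of_beq_eq_true h)
      rw [this]; simp
    · have : Nat.beq a i = false := by
        rw [Bool.eq_false_iff]; intro h; exact hi (Nat.eq_of_beq_eq_true h)
      rw [this]; simp
  rw [e 2 0 (by norm_num), e 3 1 (by norm_num), e 2 1 (by norm_num), e 3 0 (by norm_num)]
  rfl

/-- **Changes of the letters of the first circle only.** -/
theorem oc_z {P : Fin 6 → Set (Fin 4)} (hP : P ∈ GS) (hac : ∀ k, 2 ∈ P k → 3 ∉ P k)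
    (hq : Sel R4 P q) (hq' : Sel R4 P q') (h1 : L2 q r) (h2 : L2 q' r) :
    PathM F (J2 q r) (∑ k, cz F (q k).val (q' k).val) (J2 q' r) := by
  have cp : ∀ h : Hx, (∀ k, h k ∈ ({q k, q' k} : Set (Fin 4))) → ∀ k,
      Nat.land (lz (h k)) (lv (r k)) = 0 := by
    intro h hh k
    rcases hh k with e | e
    · rw [e]; exact h1.cp k
    · rw [mem_singleton_iff] at e; rw [e]; exact h2.cp k
  have pp : ∀ h : Hx, (∀ k, h k ∈ ({q k, q' k} : Set (Fin 4))) → ∀ k, h k ∈ P k := by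
    intro h hh k
    rcases hh k with e | e
    · rw [e]; exact hq.1 k
    · rw [mem_singleton_iff] at e; rw [e]; exact hq'.1 k
  have key := sc_path (R := R4) (τ := fun _ x y => cz F x.val y.val) (fun _ a => cz_self F a.val)
    (fun k => ({q k, q' k} : Set (Fin 4))) (fun h n => PathM F (J2 q r) n (J2 h r)) ?_
    (h := q) (h' := q') (fun k => Or.inl rfl) (fun k => Or.inr rfl) hq.2 hq'.2 (n := 0)
    (PathM.refl _)
  · rwa [zero_add] at key
  · intro h h' hh hh' hl hl' hne hsc n hn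
    obtain ⟨k, hk, he⟩ := hP h h' ⟨pp h hh, hl⟩ ⟨pp h' hh', hl'⟩ hne hsc
    have a1 : L2 h r := ⟨legR_iff.1 hl, h1.lr, cp h hh⟩
    have a2 : L2 h' r := ⟨legR_iff.1 hl', h1.lr, cp h' hh'⟩
    have a2' := a2
    rw [he] at a2'
    have hs := step_z a1 a2' hk (fun h3 => hac k (h3.1 ▸ pp h hh k) (h3.2 ▸ pp h' hh' k))
      (fun h3 => hac k (h3.2 ▸ pp h' hh' k) (h3.1 ▸ pp h hh k))
    rw [← he] at hs
    have := PathM.tail hn hs
    rw [cW_J2 a1 a2] at this
    have e0 : ∑ k, cv F (r k).val (r k).val = 0 := Finset.sum_eq_zero fun k _ => cv_self F _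
    rwa [e0, add_zero] at this

/-- **Changes of the letters of the second circle only.** -/
theorem oc_v {P : Fin 6 → Set (Fin 4)} (hP : P ∈ GS) (hac : ∀ k, 2 ∈ P k → 3 ∉ P k)
    (hr : Sel R4 P r) (hr' : Sel R4 P r') (h1 : L2 q r) (h2 : L2 q r') :
    PathM F (J2 q r) (∑ k, cv F (r k).val (r' k).val) (J2 q r') := by
  have cp : ∀ h : Hx, (∀ k, h k ∈ ({r k, r' k} : Set (Fin 4))) → ∀ k,
      Nat.land (lz (q k)) (lv (h k)) = 0 := by
    intro h hh k
    rcases hh k with e | e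
    · rw [e]; exact h1.cp k
    · rw [mem_singleton_iff] at e; rw [e]; exact h2.cp k
  have pp : ∀ h : Hx, (∀ k, h k ∈ ({r k, r' k} : Set (Fin 4))) → ∀ k, h k ∈ P k := by
    intro h hh k
    rcases hh k with e | e
    · rw [e]; exact hr.1 k
    · rw [mem_singleton_iff] at e; rw [e]; exact hr'.1 k
  have key := sc_path (R := R4) (τ := fun _ x y => cv F x.val y.val) (fun _ a => cv_self F a.val)
    (fun k => ({r k, r' k} : Set (Fin 4))) (fun h n => PathM F (J2 q r) n (J2 q h)) ?_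
    (h := r) (h' := r') (fun k => Or.inl rfl) (fun k => Or.inr rfl) hr.2 hr'.2 (n := 0)
    (PathM.refl _)
  · rwa [zero_add] at key
  · intro h h' hh hh' hl hl' hne hsc n hn
    obtain ⟨k, hk, he⟩ := hP h h' ⟨pp h hh, hl⟩ ⟨pp h' hh', hl'⟩ hne hsc
    have a1 : L2 q h := ⟨h1.lq, legR_iff.1 hl, cp h hh⟩
    have a2 : L2 q h' := ⟨h1.lq, legR_iff.1 hl', cp h' hh'⟩
    have a2' := a2
    rw [he] at a2'
    have hs := step_v a1 a2' hk (fun h3 => hac k (h3.1 ▸ pp h hh k) (h3.2 ▸ pp h' hh' k))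
      (fun h3 => hac k (h3.2 ▸ pp h' hh' k) (h3.1 ▸ pp h hh k))
    rw [← he] at hs
    have := PathM.tail hn hs
    rw [cW_J2 a1 a2] at this
    have e0 : ∑ k, cz F (q k).val (q k).val = 0 := Finset.sum_eq_zero fun k _ => cz_self F _
    rwa [e0, zero_add] at this

theorem cz_symm (F : Fin 8 → Bool) (a b : ℕ) : cz F a b = cz F b a := by
  unfold cz
  rw [Trie.symm_aux a b 2 0, Trie.symm_aux a b 3 1, Trie.symm_aux a b 2 1, Trie.symm_aux a b 3 0]

theorem cv_symm (F : Fin 8 → Bool) (a b : ℕ) : cv F a b = cv F b a := by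
  unfold cv
  rw [Trie.symm_aux a b 2 0, Trie.symm_aux a b 3 1, Trie.symm_aux a b 2 1, Trie.symm_aux a b 3 0]

/-- paths in both directions -/
def Both (F : Fin 8 → Bool) (h : ℕ → ℕ) (n : Fin 8 → ℕ) (g : ℕ → ℕ) : Prop :=
  PathM F h n g ∧ PathM F g n h

theorem Both.trans {h g k : ℕ → ℕ} {n m : Fin 8 → ℕ} (h1 : Both F h n g) (h2 : Both F g m k) :
    Both F h (n + m) k :=
  ⟨h1.1.trans h2.1, by rw [add_comm]; exact h2.2.trans h1.2⟩

theorem Both.refl (F : Fin 8 → Bool) (h : ℕ → ℕ) : Both F h 0 h := ⟨PathM.refl _, PathM.refl _⟩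

theorem both_z {P : Fin 6 → Set (Fin 4)} (hP : P ∈ GS) (hac : ∀ k, 2 ∈ P k → 3 ∉ P k)
    (hq : ∀ k, q k ∈ P k) (hq' : ∀ k, q' k ∈ P k) (h1 : L2 q r) (h2 : L2 q' r) :
    Both F (J2 q r) (∑ k, cz F (q k).val (q' k).val) (J2 q' r) := by
  refine ⟨oc_z hP hac ⟨hq, legR_iff.2 h1.lq⟩ ⟨hq', legR_iff.2 h2.lq⟩ h1 h2, ?_⟩
  have := oc_z (F := F) hP hac ⟨hq', legR_iff.2 h2.lq⟩ ⟨hq, legR_iff.2 h1.lq⟩ h2 h1
  have e : ∑ k, cz F (q' k).val (q k).val = ∑ k, cz F (q k).val (q' k).val :=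
    Finset.sum_congr rfl fun k _ => cz_symm F _ _
  rwa [e] at this

theorem both_v {P : Fin 6 → Set (Fin 4)} (hP : P ∈ GS) (hac : ∀ k, 2 ∈ P k → 3 ∉ P k)
    (hr : ∀ k, r k ∈ P k) (hr' : ∀ k, r' k ∈ P k) (h1 : L2 q r) (h2 : L2 q r') :
    Both F (J2 q r) (∑ k, cv F (r k).val (r' k).val) (J2 q r') := by
  refine ⟨oc_v hP hac ⟨hr, legR_iff.2 h1.lr⟩ ⟨hr', legR_iff.2 h2.lr⟩ h1 h2, ?_⟩
  have := oc_v (F := F) hP hac ⟨hr', legR_iff.2 h2.lr⟩ ⟨hr, legR_iff.2 h1.lr⟩ h2 h1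
  have e : ∑ k, cv F (r' k).val (r k).val = ∑ k, cv F (r k).val (r' k).val :=
    Finset.sum_congr rfl fun k _ => cv_symm F _ _
  rwa [e] at this

/-- the two states at the special time -/
theorem lk_of {X Y : Fin 4} (H : L2 q r) (H' : L2 q' r') (q0 : q 0 = 2) (q1 : q 1 = 1) (q5 : q 5 = 1)
    (r2 : r 2 = 1) (r4 : r 4 = 1) (r3 : r 3 = X) (q0' : q' 0 = 0) (r3' : r' 3 = Y)
    (hq : ∀ k, k ≠ 0 → q' k = q k) (hr : ∀ k, k ≠ 3 → r' k = r k) :
    Lk X.val Y.val (J2 q r) (J2 q' r') := by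
  have f : ∀ k : Fin 6, zl (J2 q r k.val) = (q k).val ∧ vl (J2 q r k.val) = (r k).val := fun k => by
    obtain ⟨-, e1, e2, -⟩ := jl_facts _ _ (H.cp k)
    rw [J2_fin]; exact ⟨e1, e2⟩
  have same : ∀ k : Fin 6, k ≠ 0 → k ≠ 3 → J2 q' r' k.val = J2 q r k.val := fun k h0 h3 => by
    rw [J2_fin, J2_fin, hq k h0, hr k h3]
  refine ⟨H.leg, H'.leg, ?_, ?_, ?_, ?_, ?_, ?_, ?_, ?_, ?_, ?_, ?_, ?_⟩
  · have := (f 0).1; rw [q0] at this; exact this
  · have := (f 1).1; rw [q1] at this; exact this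
  · have := (f 5).1; rw [q5] at this; exact this
  · have := (f 2).2; rw [r2] at this; exact this
  · have := (f 4).2; rw [r4] at this; exact this
  · have := (f 3).2; rw [r3] at this; exact this
  · have h1 := J2_fin q' r' 0
    have h2 := (f 0).2
    rw [q0', hr 0 (by decide)] at h1
    show J2 q' r' (0 : Fin 6).val = jn 0 (vl (J2 q r (0 : Fin 6).val))
    rw [h1, h2]; rfl
  · have h1 := J2_fin q' r' 3
    have h2 := (f 3).1
    rw [r3', hq 3 (by decide)] at h1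
    show J2 q' r' (3 : Fin 6).val = jn (zl (J2 q r (3 : Fin 6).val)) Y.val
    rw [h1, h2]; rfl
  · exact same 1 (by decide) (by decide)
  · exact same 2 (by decide) (by decide)
  · exact same 4 (by decide) (by decide)
  · exact same 5 (by decide) (by decide)

theorem cmp_A : ∀ y : Fin 4, Nat.land (lz 2) (lv y) = 0 → Nat.land (lz 0) (lv y) = 0 := by decide
theorem cmp_P : ∀ x : Fin 4, Nat.land (lz x) (lv 2) = 0 → Nat.land (lz x) (lv 0) = 0 := by decide
theorem cmp_A3 : ∀ y : Fin 4, Nat.land (lz 2) (lv y) = 0 → y ≠ 3 := by decide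
theorem cmp_P3 : ∀ x : Fin 4, Nat.land (lz x) (lv 2) = 0 → x ≠ 3 := by decide

variable {qA rA qE rE : Hx}

/-- hypotheses at the special time: `A`-side `qA, rA`, `e`-side `qE, rE` -/
structure Spt (P Q : Fin 6 → Set (Fin 4)) (X Y : Fin 4) (qA rA qE rE : Hx) : Prop where
  gP : P ∈ GS
  gQ : Q ∈ GS
  acP : ∀ k, 2 ∈ P k → 3 ∉ P k
  acQ : ∀ k, 2 ∈ Q k → 3 ∉ Q k
  lA : L2 qA rA
  lE : L2 qE rE
  pA : ∀ k, qA k ∈ P k
  pE : ∀ k, qE k ∈ P k
  vA : ∀ k, rA k ∈ Q k
  vE : ∀ k, rE k ∈ Q k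
  a0 : qA 0 = 2
  e0 : qE 0 = 0
  a1 : qA 1 = 1
  a5 : qA 5 = 1
  e1 : qE 1 = 1
  e5 : qE 5 = 1
  x3 : rA 3 = X
  y3 : rE 3 = Y
  x2 : rA 2 = 1
  x4 : rA 4 = 1
  y2 : rE 2 = 1
  y4 : rE 4 = 1

theorem leg_upd {h : Hx} {k : Fin 6} {l : Fin 4} (H : Leg4 h) (h1 : l ≠ h (k + 1))
    (h2 : h (k - 1) ≠ l) (h3 : ¬ (l = 2 ∧ h (k + 3) = 3)) (h4 : ¬ (h (k + 3) = 2 ∧ l = 3)) :
    Leg4 (Function.update h k l) := by
  have ne1 : ∀ j : Fin 6, j + 1 ≠ j := by decide
  have ne3 : ∀ j : Fin 6, j + 3 ≠ j := by decide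
  have e1 : ∀ j k : Fin 6, j + 1 = k → j = k - 1 := by decide
  have e3 : ∀ j k : Fin 6, j + 3 = k → j = k + 3 := by decide
  constructor
  · intro j
    by_cases hj : j = k
    · subst hj
      rw [Function.update_self, Function.update_of_ne (ne1 j)]; exact h1
    · rw [Function.update_of_ne hj]
      by_cases hj' : j + 1 = k
      · rw [hj', Function.update_self, e1 j k hj']; exact h2
      · rw [Function.update_of_ne hj']; exact H.1 j
  · intro j
    by_cases hj : j = k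
    · subst hj
      rw [Function.update_self, Function.update_of_ne (ne3 j)]; exact h3
    · rw [Function.update_of_ne hj]
      by_cases hj' : j + 3 = k
      · rw [hj', Function.update_self, e3 j k hj']; exact h4
      · rw [Function.update_of_ne hj']; exact H.2 j

theorem sum_upd (F : Fin 8 → Bool) (c : ℕ → ℕ → Fin 8 → ℕ) (hc : ∀ a, c a a = 0) (g h : Hx)
    (k : Fin 6) {l : Fin 4} (hg : g k = l) :
    ∑ j, c (g j).val (Function.update h k l j).val =
      ∑ j ∈ Finset.univ.erase k, c (g j).val (h j).val := by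
  rw [← Finset.add_sum_erase _ _ (Finset.mem_univ k), Function.update_self, hg, hc, zero_add]
  exact Finset.sum_congr rfl fun j hj => by
    rw [Function.update_of_ne (Finset.ne_of_mem_erase hj)]

theorem sum_upd' (F : Fin 8 → Bool) (c : ℕ → ℕ → Fin 8 → ℕ) (hc : ∀ a, c a a = 0) (g h : Hx)
    (k : Fin 6) {l : Fin 4} (hh : h k = l) :
    ∑ j, c (Function.update g k l j).val (h j).val =
      ∑ j ∈ Finset.univ.erase k, c (g j).val (h j).val := by
  rw [← Finset.add_sum_erase _ _ (Finset.mem_univ k), Function.update_self, hh, hc, zero_add]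
  exact Finset.sum_congr rfl fun j hj => by
    rw [Function.update_of_ne (Finset.ne_of_mem_erase hj)]

/-- **The special time, near.** -/
theorem Spt.near {P Q : Fin 6 → Set (Fin 4)} (S : Spt P Q 0 2 qA rA qE rE) (F : Fin 8 → Bool)
    (hP3 : 3 ∉ P 3) (hQ0 : 3 ∉ Q 0) : ∃ x y c1 c2, Lk 0 2 x y ∧ Both F (J2 qA rA) c1 x ∧
      Both F y c2 (J2 qE rE) ∧ c1 + c2 = (∑ k ∈ Finset.univ.erase 0, cz F (qA k).val (qE k).val) +
        ∑ k ∈ Finset.univ.erase 3, cv F (rA k).val (rE k).val := by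
  -- the words
  have lqx : Leg4 (Function.update qE 0 2) := by
    refine leg_upd S.lE.lq ?_ ?_ ?_ ?_
    · show (2 : Fin 4) ≠ qE 1; rw [S.e1]; decide
    · show qE 5 ≠ 2; rw [S.e5]; decide
    · rintro ⟨-, h⟩; exact hP3 (h ▸ S.pE 3)
    · rintro ⟨-, h⟩; exact absurd h (by decide)
  have lry : Leg4 (Function.update rA 3 2) := by
    refine leg_upd S.lA.lr ?_ ?_ ?_ ?_
    · show (2 : Fin 4) ≠ rA 4; rw [S.x4]; decide
    · show rA 2 ≠ 2; rw [S.x2]; decide
    · rintro ⟨-, h⟩; exact hQ0 (h ▸ S.vA 0)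
    · rintro ⟨-, h⟩; exact absurd h (by decide)
  have c3 : Nat.land (lz (qE 3)) (lv 2) = 0 := by rw [← S.y3]; exact S.lE.cp 3
  have cA0 : Nat.land (lz 2) (lv (rA 0)) = 0 := by rw [← S.a0]; exact S.lA.cp 0
  have L1 : L2 (Function.update qE 0 2) rA := by
    refine ⟨lqx, S.lA.lr, ?_⟩
    intro k
    fin_cases k
    · show Nat.land (lz 2) (lv (rA 0)) = 0; exact cA0
    · show Nat.land (lz (qE 1)) (lv (rA 1)) = 0; rw [S.e1, ← S.a1]; exact S.lA.cp 1
    · show Nat.land (lz (qE 2)) (lv (rA 2)) = 0; rw [S.x2, ← S.y2]; exact S.lE.cp 2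
    · show Nat.land (lz (qE 3)) (lv (rA 3)) = 0; rw [S.x3]; exact cmp_P _ c3
    · show Nat.land (lz (qE 4)) (lv (rA 4)) = 0; rw [S.x4, ← S.y4]; exact S.lE.cp 4
    · show Nat.land (lz (qE 5)) (lv (rA 5)) = 0; rw [S.e5, ← S.a5]; exact S.lA.cp 5
  have L3 : L2 qE (Function.update rA 3 2) := by
    refine ⟨S.lE.lq, lry, ?_⟩
    intro k
    fin_cases k
    · show Nat.land (lz (qE 0)) (lv (rA 0)) = 0; rw [S.e0]; exact cmp_A _ cA0
    · show Nat.land (lz (qE 1)) (lv (rA 1)) = 0; rw [S.e1, ← S.a1]; exact S.lA.cp 1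
    · show Nat.land (lz (qE 2)) (lv (rA 2)) = 0; rw [S.x2, ← S.y2]; exact S.lE.cp 2
    · show Nat.land (lz (qE 3)) (lv 2) = 0; exact c3
    · show Nat.land (lz (qE 4)) (lv (rA 4)) = 0; rw [S.x4, ← S.y4]; exact S.lE.cp 4
    · show Nat.land (lz (qE 5)) (lv (rA 5)) = 0; rw [S.e5, ← S.a5]; exact S.lA.cp 5
  refine ⟨J2 (Function.update qE 0 2) rA, J2 qE (Function.update rA 3 2), _, _, ?_,
    both_z S.gP S.acP S.pA ?_ S.lA L1, both_v S.gQ S.acQ ?_ S.vE L3 S.lE, ?_⟩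
  · exact lk_of (X := 0) (Y := 2) L1 L3 (Function.update_self _ _ _)
      (by rw [Function.update_of_ne (by decide)]; exact S.e1)
      (by rw [Function.update_of_ne (by decide)]; exact S.e5) S.x2 S.x4 S.x3 S.e0
      (Function.update_self _ _ _) (fun k hk => by rw [Function.update_of_ne hk])
      (fun k hk => by rw [Function.update_of_ne hk])
  · intro k
    by_cases hk : k = 0
    · subst hk; rw [Function.update_self, ← S.a0]; exact S.pA 0
    · rw [Function.update_of_ne hk]; exact S.pE k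
  · intro k
    by_cases hk : k = 3
    · subst hk; rw [Function.update_self, ← S.y3]; exact S.vE 3
    · rw [Function.update_of_ne hk]; exact S.vA k
  · rw [sum_upd F (cz F) (cz_self F) qA qE 0 S.a0, sum_upd' F (cv F) (cv_self F) rA rE 3 S.y3]

/-- **The special time, far.** -/
theorem Spt.far {P Q : Fin 6 → Set (Fin 4)} (S : Spt P Q 2 0 qA rA qE rE) (F : Fin 8 → Bool) :
    ∃ x y c1 c2, Lk 2 0 x y ∧ Both F (J2 qA rA) c1 x ∧
      Both F y c2 (J2 qE rE) ∧ c1 + c2 = (∑ k ∈ Finset.univ.erase 0, cz F (qA k).val (qE k).val) +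
        ∑ k ∈ Finset.univ.erase 3, cv F (rA k).val (rE k).val := by
  have lqy : Leg4 (Function.update qA 0 0) := by
    refine leg_upd S.lA.lq ?_ ?_ ?_ ?_
    · show (0 : Fin 4) ≠ qA 1; rw [S.a1]; decide
    · show qA 5 ≠ 0; rw [S.a5]; decide
    · rintro ⟨h, -⟩; exact absurd h (by decide)
    · rintro ⟨-, h⟩; exact absurd h (by decide)
  have lry : Leg4 (Function.update rA 3 0) := by
    refine leg_upd S.lA.lr ?_ ?_ ?_ ?_
    · show (0 : Fin 4) ≠ rA 4; rw [S.x4]; decide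
    · show rA 2 ≠ 0; rw [S.x2]; decide
    · rintro ⟨h, -⟩; exact absurd h (by decide)
    · rintro ⟨-, h⟩; exact absurd h (by decide)
  have c3 : Nat.land (lz (qA 3)) (lv 2) = 0 := by rw [← S.x3]; exact S.lA.cp 3
  have cA0 : Nat.land (lz 2) (lv (rA 0)) = 0 := by rw [← S.a0]; exact S.lA.cp 0
  have L1 : L2 (Function.update qA 0 0) (Function.update rA 3 0) := by
    refine ⟨lqy, lry, ?_⟩
    intro k
    fin_cases k
    · show Nat.land (lz 0) (lv (rA 0)) = 0; exact cmp_A _ cA0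
    · exact S.lA.cp 1
    · exact S.lA.cp 2
    · show Nat.land (lz (qA 3)) (lv 0) = 0; exact cmp_P _ c3
    · exact S.lA.cp 4
    · exact S.lA.cp 5
  have L3 : L2 qE (Function.update rA 3 0) := by
    refine ⟨S.lE.lq, lry, ?_⟩
    intro k
    fin_cases k
    · show Nat.land (lz (qE 0)) (lv (rA 0)) = 0; rw [S.e0]; exact cmp_A _ cA0
    · show Nat.land (lz (qE 1)) (lv (rA 1)) = 0; rw [S.e1, ← S.a1]; exact S.lA.cp 1
    · show Nat.land (lz (qE 2)) (lv (rA 2)) = 0; rw [S.x2, ← S.y2]; exact S.lE.cp 2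
    · show Nat.land (lz (qE 3)) (lv 0) = 0; rw [← S.y3]; exact S.lE.cp 3
    · show Nat.land (lz (qE 4)) (lv (rA 4)) = 0; rw [S.x4, ← S.y4]; exact S.lE.cp 4
    · show Nat.land (lz (qE 5)) (lv (rA 5)) = 0; rw [S.e5, ← S.a5]; exact S.lA.cp 5
  have pQ : ∀ k, Function.update rA 3 0 k ∈ Q k := by
    intro k
    by_cases hk : k = 3
    · subst hk; rw [Function.update_self, ← S.y3]; exact S.vE 3
    · rw [Function.update_of_ne hk]; exact S.vA k
  refine ⟨J2 qA rA, J2 (Function.update qA 0 0) (Function.update rA 3 0), 0, _, ?_, Both.refl _ _,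
    (both_z S.gP S.acP ?_ S.pE L1 L3).trans (both_v S.gQ S.acQ pQ S.vE L3 S.lE), ?_⟩
  · exact lk_of (X := 2) (Y := 0) S.lA L1 S.a0 S.a1 S.a5 S.x2 S.x4 S.x3 (Function.update_self _ _ _)
      (Function.update_self _ _ _) (fun k hk => by rw [Function.update_of_ne hk])
      (fun k hk => by rw [Function.update_of_ne hk])
  · intro k
    by_cases hk : k = 0
    · subst hk; rw [Function.update_self, ← S.e0]; exact S.pE 0
    · rw [Function.update_of_ne hk]; exact S.pA k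
  · rw [zero_add, sum_upd' F (cz F) (cz_self F) qA qE 0 S.e0,
      sum_upd' F (cv F) (cv_self F) rA rE 3 S.y3]

end Vale.Agent.P032.S5.H281
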