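import Vale.Agent.P032.S5.H281.Lsc

/-!
# P032: the frame on a disc, and without a bound on the order

`exists_irr_min_disc` : the hypotheses of `exists_irr_min_pair` only on a closed set `D` (for
example a closed disc), the conclusions on `D`.
`exists_irr_min_clean` : only `of two points of D at distance one always one has a neighbourhood
for which three colours suffice`; the cover has no two points of `D` at distance one with more than
three colours.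
-/

open Set Filter Topology Metric

noncomputable section

namespace Vale.Agent.P032.S5.H281

open Vale.Agent.P032.Six

/-- `m` on `O ∩ D`, `3` on `D \ O`, `6` off `D` -/
def ordF (O D : Set ℂ) (m : ℕ) (x : ℂ) : ℕ :=
  open Classical in if x ∈ D then (if x ∈ O then m else 3) else 6

theorem ordF_le {O D : Set ℂ} {m : ℕ} (hm : 3 ≤ m) (x : ℂ) : 3 ≤ ordF O D m x := by
  unfold ordF
  split_ifs <;> omega

theorem ordF_lsc {O D : Set ℂ} (hO : IsOpen O) (hD : IsClosed D) {m : ℕ} (hm : 3 ≤ m)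
    (hm6 : m ≤ 6) (x : ℂ) : ∀ᶠ w in 𝓝 x, ordF O D m x ≤ ordF O D m w := by
  by_cases hx : x ∈ D
  · by_cases hxO : x ∈ O
    · filter_upwards [hO.mem_nhds hxO] with w hw
      simp only [ordF, hx, hxO, hw, if_true]
      split_ifs <;> omega
    · refine Eventually.of_forall fun w => ?_
      simp only [ordF, hx, hxO, if_true, if_false]
      split_ifs <;> omega
  · filter_upwards [hD.isOpen_compl.mem_nhds hx] with w hw
    have hw' : w ∉ D := hw
    simp only [ordF, hx, hw', if_false]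
    exact le_rfl

/-- six colours always suffice -/
theorem suf_six {U : Fin 6 → Set ℂ} (h : Mx U) (x : ℂ) : ∃ s : Set (Fin 6), s.ncard ≤ 6 ∧
    ∀ᶠ w in 𝓝 x, ∃ i ∈ s, w ∈ U i ∨ (w ∈ XX U ∧ i ∈ Pal U w) := by
  refine ⟨univ, ?_, Eventually.of_forall fun w => ?_⟩
  · have := Set.ncard_le_card (univ : Set (Fin 6))
    rwa [Nat.card_eq_fintype_card, Fintype.card_fin] at this
  · obtain ⟨i, hi⟩ := h.Kst_nonempty w
    refine ⟨i, mem_univ i, ?_⟩
    by_cases hX : w ∈ XX U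
    · exact Or.inr ⟨hX, Kst_sub w hi⟩
    · exact Or.inl (h.Kst_mem hX hi)

/-- **The frame on a closed set**: at most `m` colours on `D` and no unit pairs of points of `D` with
more than three colours. -/
theorem exists_irr_min_on {U : Fin 6 → Set ℂ} (h : Mx U)
    (hmax : ∀ i x, (∀ y ∈ closure (U i), dist x y ≠ 1) → x ∈ U i)
    {D : Set ℂ} (hD : IsClosed D) {m : ℕ} (hm : 3 ≤ m) (hm6 : m ≤ 6)
    (h4 : ∀ z ∈ D, ∃ s : Set (Fin 6), s.ncard ≤ m ∧
      ∀ᶠ w in 𝓝 z, ∃ i ∈ s, w ∈ U i ∨ (w ∈ XX U ∧ i ∈ Pal U w))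
    (hu : ∀ z ∈ D, ∀ z' ∈ D, dist z z' = 1 → ∃ y, (y = z ∨ y = z') ∧
      ∃ s : Set (Fin 6), s.ncard ≤ 3 ∧
        ∀ᶠ w in 𝓝 y, ∃ i ∈ s, w ∈ U i ∨ (w ∈ XX U ∧ i ∈ Pal U w)) :
    ∃ T, Irr U T ∧
      (∀ z, 4 ≤ (T z).ncard → ∀ s, s ⊆ T z → s ≠ T z →
        ¬ ∀ᶠ w in 𝓝 z, ∃ i ∈ s, w ∈ U i ∨ (w ∈ XX U ∧ i ∈ Pal U w)) ∧
      (∀ z ∈ D, (T z).ncard ≤ m) ∧
      ∀ z ∈ D, ∀ z' ∈ D, dist z z' = 1 → 4 ≤ (T z).ncard → 4 ≤ (T z').ncard → False := by
  classical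
  set C : Set ℂ := D ∩ {z | ∀ s : Set (Fin 6), s.ncard ≤ 3 →
    ¬ ∀ᶠ w in 𝓝 z, ∃ i ∈ s, w ∈ U i ∨ (w ∈ XX U ∧ i ∈ Pal U w)} with hC
  have hCc : IsClosed C := by
    refine hD.inter ?_
    rw [← isOpen_compl_iff, isOpen_iff_mem_nhds]
    intro z hz
    have hz' : ¬ ∀ s : Set (Fin 6), s.ncard ≤ 3 →
      ¬ ∀ᶠ w in 𝓝 z, ∃ i ∈ s, w ∈ U i ∨ (w ∈ XX U ∧ i ∈ Pal U w) := hz
    push Not at hz'
    obtain ⟨s, hs, hev⟩ := hz'
    filter_upwards [eventually_eventually_nhds.2 hev] with w hw hwC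
    exact hwC s hs hw
  obtain ⟨O, hO, hCO, hOu⟩ := exists_open_no_unit hCc (by
    intro x hx y hy hxy
    obtain ⟨v, hv, s, hs, hev⟩ := hu x hx.1 y hy.1 hxy
    rcases hv with rfl | rfl
    · exact hx.2 s hs hev
    · exact hy.2 s hs hev)
  obtain ⟨T, hT, hmin, hle⟩ := exists_irr_min_lsc h hmax (ordF O D m) (ordF_le hm)
    (ordF_lsc hO hD hm hm6) (fun x => by
      by_cases hx : x ∈ D
      · by_cases hxO : x ∈ O
        · simpa only [ordF, hx, hxO, if_true] using h4 x hx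
        · have hx' : ¬ ∀ s : Set (Fin 6), s.ncard ≤ 3 →
            ¬ ∀ᶠ w in 𝓝 x, ∃ i ∈ s, w ∈ U i ∨ (w ∈ XX U ∧ i ∈ Pal U w) :=
            fun h1 => hxO (hCO ⟨hx, h1⟩)
          push Not at hx'
          obtain ⟨s, hs, hev⟩ := hx'
          exact ⟨s, by simpa only [ordF, hx, hxO, if_true, if_false] using hs, hev⟩
      · simpa only [ordF, hx, if_false] using suf_six h x)
  have hmem : ∀ z ∈ D, 4 ≤ (T z).ncard → z ∈ O := by
    intro z hzD hz
    by_contra hcon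
    have h1 := hle z
    simp only [ordF, hzD, hcon, if_true, if_false] at h1
    omega
  refine ⟨T, hT, hmin, fun z hz => (hle z).trans ?_, fun z hzD z' hzD' hzz hz hz' => ?_⟩
  · simp only [ordF, hz, if_true]
    split_ifs <;> omega
  · exact hOu z (hmem z hzD hz) z' (hmem z' hzD' hz') hzz

/-- **Clean frame, whole plane**, no bound on the order: no two points at distance one with more than
three colours. -/
theorem exists_irr_min_clean {U : Fin 6 → Set ℂ} (h : Mx U)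
    (hmax : ∀ i x, (∀ y ∈ closure (U i), dist x y ≠ 1) → x ∈ U i)
    (hu : ∀ z z', dist z z' = 1 → ∃ y, (y = z ∨ y = z') ∧ ∃ s : Set (Fin 6), s.ncard ≤ 3 ∧
      ∀ᶠ w in 𝓝 y, ∃ i ∈ s, w ∈ U i ∨ (w ∈ XX U ∧ i ∈ Pal U w)) :
    ∃ T, Irr U T ∧
      (∀ z, 4 ≤ (T z).ncard → ∀ s, s ⊆ T z → s ≠ T z →
        ¬ ∀ᶠ w in 𝓝 z, ∃ i ∈ s, w ∈ U i ∨ (w ∈ XX U ∧ i ∈ Pal U w)) ∧
      ∀ z z', dist z z' = 1 → 4 ≤ (T z).ncard → 4 ≤ (T z').ncard → False := by
  obtain ⟨T, hT, hmin, -, hp⟩ := exists_irr_min_on h hmax isClosed_univ (m := 6) (by omega) le_rfl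
    (fun z _ => suf_six h z) (fun z _ z' _ hzz => hu z z' hzz)
  exact ⟨T, hT, hmin, fun z z' => hp z (mem_univ z) z' (mem_univ z')⟩

end Vale.Agent.P032.S5.H281
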