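import Vale.Agent.P032.S5.H410.Min
import Vale.Agent.P032.S5.H287.HMTop

/-!
# P032: the minimality of the palettes in the literal forms of the consumers

`hmin_iff` : the form of `S5/H410/Min.lean` is equivalent to the form used as the hypothesis `hmin`
in `S5/H360/Degree.lean`; `exists_irr_hmin` : existence with that form and with the form of
`S5/H287/HMTop.lean`.
-/

open Set Filter Topology Metric

noncomputable section

namespace Vale.Agent.P032.S5.H281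

open Vale.Agent.P032.Six

variable {k : ℕ} {U : Fin k → Set ℂ} {T : ℂ → Set (Fin k)}

/-- the two pointwise forms of a sufficient colour agree -/
theorem suf_colour_iff {w : ℂ} {i : Fin k} :
    (i ∈ Pal U w ∧ (w ∉ XX U → w ∈ U i)) ↔ (w ∈ U i ∨ (w ∈ XX U ∧ i ∈ Pal U w)) := by
  constructor
  · rintro ⟨h1, h2⟩
    by_cases hX : w ∈ XX U
    · exact Or.inr ⟨hX, h1⟩
    · exact Or.inl (h2 hX)
  · rintro (h1 | ⟨h1, h2⟩)
    · exact ⟨subset_closure h1, fun _ => h1⟩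
    · exact ⟨h2, fun hX => absurd h1 hX⟩

/-- the form of `H410/Min.lean` gives the form of `H360/Degree.lean` -/
theorem hmin_iff :
    (∀ z, 4 ≤ (T z).ncard → ∀ s, s ⊆ T z →
        (∀ᶠ w in 𝓝 z, ∃ i ∈ s, i ∈ Pal U w ∧ (w ∉ XX U → w ∈ U i)) → s = T z) ↔
      ∀ z, 4 ≤ (T z).ncard → ∀ s, s ⊆ T z → s ≠ T z →
        ¬ ∀ᶠ w in 𝓝 z, ∃ i ∈ s, w ∈ U i ∨ (w ∈ XX U ∧ i ∈ Pal U w) := by
  constructor
  · intro h z hz s hs hne hev
    exact hne (h z hz s hs (hev.mono fun w ⟨i, hi, hw⟩ => ⟨i, hi, suf_colour_iff.2 hw⟩))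
  · intro h z hz s hs hev
    by_contra hne
    exact h z hz s hs hne (hev.mono fun w ⟨i, hi, hw⟩ => ⟨i, hi, suf_colour_iff.1 hw⟩)

/-- **Existence with the literal `hmin` of `H360/Degree.lean`.** -/
theorem exists_irr_hmin (V : Fin 6 → Set ℂ) (hV : ∀ i, IsOpen (V i))
    (h : ∀ i, ∀ x ∈ V i, ∀ y ∈ V i, dist x y ≠ 1) (hd : Dense (⋃ i, V i)) :
    ∃ U T, Irr U T ∧ (∀ i, V i ⊆ U i) ∧
      (∀ z, 4 ≤ (T z).ncard → ∀ s, s ⊆ T z → s ≠ T z →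
        ¬ ∀ᶠ w in 𝓝 z, ∃ i ∈ s, w ∈ U i ∨ (w ∈ XX U ∧ i ∈ Pal U w)) := by
  obtain ⟨U, T, hT, hVU, hmin⟩ := H410.exists_irr_min V hV h hd
  exact ⟨U, T, hT, hVU, hmin_iff.1 hmin⟩

/-- existence with `Suf` of `H287/HMTop.lean` -/
theorem exists_irr_suf (V : Fin 6 → Set ℂ) (hV : ∀ i, IsOpen (V i))
    (h : ∀ i, ∀ x ∈ V i, ∀ y ∈ V i, dist x y ≠ 1) (hd : Dense (⋃ i, V i)) :
    ∃ U T, Irr U T ∧ (∀ i, V i ⊆ U i) ∧
      (∀ z, 4 ≤ (T z).ncard → ∀ s, s ⊆ T z → s ≠ T z → ¬ ∀ᶠ w in 𝓝 z, Suf U s w) :=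
  exists_irr_hmin V hV h hd

end Vale.Agent.P032.S5.H281
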