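import Vale.Agent.P032.S5.H410.Min
import Vale.Agent.P032.S5.H281.MinForm

/-!
# P032: minimal covers with lower semicontinuous order

`exists_irr_min_lsc` : let `ν` be a lower semicontinuous function with values at least three such
that near every point `x` some `ν x` colours suffice for the maximal family `U`.  Then there is an
irredundant closed cover with minimal palettes and at most `ν x` colours at `x`, for every `x`.

`exists_open_no_unit` : a closed set without unit pairs has an open neighbourhood without unit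
pairs.

`exists_irr_min_pair` : if near every point four colours suffice, and of two points at distance one
always one has a neighbourhood for which three colours suffice, then the cover can be chosen with at
most four colours at every point and no two points at distance one with more than three colours.
-/

open Set Filter Topology Metric

noncomputable section

namespace Vale.Agent.P032.S5.H281

open Vale.Agent.P032.Six Vale.Agent.P032.S5.H410

variable {ι : Type*} [Finite ι]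

/-- **first step** : a closed cover with at most `ν x` colours at `x` -/
theorem cover_step_lsc {P : ℂ → Set ι} {K : Set ι → ℂ → Set ι}
    (hKs : ∀ s x, K s x ⊆ s) (hKc : ∀ s i, IsClosed {x | i ∈ K s x})
    (hK : ∀ s x, (∃ i ∈ s, i ∈ P x) → (K s x).Nonempty ∧ K s x ⊆ P x)
    {Z : Set ℂ} (hZ : IsClosed Z) (hZd : IsTotallyDisconnected Z)
    {ν : ℂ → ℕ} (hlsc : ∀ x, ∀ᶠ w in 𝓝 x, ν x ≤ ν w)
    (hZν : ∀ x, x ∉ Z → (P x).ncard ≤ ν x)
    {T : ℂ → Set ι} (hc : ∀ i, IsClosed {x | i ∈ T x}) (hn : ∀ x, (T x).Nonempty)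
    (hs : ∀ x, T x ⊆ P x) (hsuf : ∀ x, ∃ s : Set ι, s.ncard ≤ ν x ∧ Suff P s x) :
    ∃ T' : ℂ → Set ι, (∀ i, IsClosed {x | i ∈ T' x}) ∧ (∀ x, (T' x).Nonempty) ∧
      (∀ x, T' x ⊆ P x) ∧ ∀ x, (T' x).ncard ≤ ν x := by
  classical
  choose s hsel using hsuf
  have hrad : ∀ x, ∃ r : ℝ, 0 < r ∧ ∀ w, dist w x < r → (∃ i ∈ s x, i ∈ P w) ∧ ν x ≤ ν w := by
    intro x
    obtain ⟨r, hr, hball⟩ := Metric.mem_nhds_iff.1 (((hsel x).2 : ∀ᶠ w in 𝓝 x, _).and (hlsc x))
    exact ⟨r, hr, fun w hw => hball (mem_ball.2 hw)⟩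
  choose r hr0 hr using hrad
  obtain ⟨lab, hlab, hloc⟩ := exists_lab hZ.isLocallyClosed hZd
    (fun x => r x / 2) (fun x _ => half_pos (hr0 x))
  have hrho : ∀ d, ∃ ρ : ℝ, 0 < ρ ∧ (d ∈ Z → dist d (lab d) + ρ ≤ r (lab d) / 2 ∧
      ∀ d' ∈ Z, dist d' d < 2 * ρ → lab d' = lab d) := by
    intro d
    by_cases hd : d ∈ Z
    · obtain ⟨q, hq, hball⟩ := Metric.mem_nhds_iff.1 (hloc d hd)
      have h1 := (hlab d hd).2
      refine ⟨min (q / 2) (r (lab d) / 2 - dist d (lab d)), lt_min (by positivity) (by linarith),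
        fun _ => ⟨?_, fun d' hd' hdd => ?_⟩⟩
      · have := min_le_right (q / 2) (r (lab d) / 2 - dist d (lab d))
        linarith
      · refine hball (mem_ball.2 ?_) hd'
        have := min_le_left (q / 2) (r (lab d) / 2 - dist d (lab d))
        linarith
    · exact ⟨1, one_pos, fun h => absurd h hd⟩
  choose ρ hρ0 hρ using hrho
  set B : Set ι → Set ℂ := fun t => {w | ∃ d ∈ Z, dist w d < ρ d ∧ s (lab d) = t} with hB
  set N : Set ℂ := {w | ∃ d ∈ Z, dist w d < ρ d} with hN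
  have hNo : IsOpen N := by
    have : N = ⋃ d ∈ Z, ball d (ρ d) := by ext w; simp [N]
    rw [this]
    exact isOpen_biUnion fun d _ => isOpen_ball
  have hsame : ∀ d ∈ Z, ∀ d' ∈ Z, ∀ w, dist w d < ρ d → dist w d' < ρ d' → lab d = lab d' := by
    intro d hd d' hd' w hw hw'
    have h1 := dist_triangle_left d d' w
    have h2 := dist_triangle_left d' d w
    rcases le_total (ρ d) (ρ d') with h | h
    · exact (hρ d' hd').2 d hd (by linarith)
    · exact ((hρ d hd).2 d' hd' (by linarith)).symm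
  have hgoodball : ∀ d ∈ Z, ∀ w, dist w d < ρ d → dist w (lab d) < r (lab d) / 2 := by
    intro d hd w hw
    have h1 := (hρ d hd).1
    have h2 := dist_triangle w d (lab d)
    linarith
  have halpha : ∀ t, ∀ w ∈ closure (B t), ∀ d ∈ Z, dist w d < ρ d → t = s (lab d) := by
    intro t w hw d hd hwd
    obtain ⟨v, hv, hvB⟩ := mem_closure_iff_nhds.1 hw (ball d (ρ d))
      (isOpen_ball.mem_nhds (mem_ball.2 hwd))
    obtain ⟨d', hd', hvd', rfl⟩ := hvB
    rw [hsame d' hd' d hd v hvd' (mem_ball.1 hv)]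
  have hbeta : ∀ t, ∀ w ∈ closure (B t), ∃ i ∈ t, i ∈ P w := by
    intro t w hw
    by_cases hwD : w ∈ Z
    · have h1 : dist w w < ρ w := by rw [dist_self]; exact hρ0 w
      rw [halpha t w hw w hwD h1]
      refine (hr (lab w) w ?_).1
      have := hgoodball w hwD w h1
      have := hr0 (lab w)
      linarith
    · obtain ⟨η, hη, hball⟩ := Metric.mem_nhds_iff.1 (hZ.isOpen_compl.mem_nhds hwD)
      obtain ⟨v, hv, d, hd, hvd, rfl⟩ := mem_closure_iff_nhds.1 hw (ball w (η / 2))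
        (ball_mem_nhds w (by positivity))
      have h1 : η ≤ dist (lab d) w := by
        by_contra hcon
        push Not at hcon
        exact hball (mem_ball.2 hcon) (hlab d hd).1
      have h2 := hgoodball d hd v hvd
      have h3 : dist v w < η / 2 := mem_ball.1 hv
      have h4 := dist_triangle_left (lab d) w v
      refine (hr (lab d) w ?_).1
      have h5 := dist_triangle_left w (lab d) v
      linarith
  let T' : ℂ → Set ι := fun w => {i | (∃ t, w ∈ closure (B t) ∧ i ∈ K t w) ∨ (i ∈ T w ∧ w ∉ N)}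
  have hT's : ∀ x, T' x ⊆ P x := by
    rintro w i (⟨t, ht, hi⟩ | ⟨hi, -⟩)
    · exact (hK t w (hbeta t w ht)).2 hi
    · exact hs w hi
  refine ⟨T', fun i => ?_, fun w => ?_, hT's, fun w => ?_⟩
  · have h1 : {x | i ∈ T' x} = (⋃ t, closure (B t) ∩ {x | i ∈ K t x}) ∪ ({x | i ∈ T x} ∩ Nᶜ) := by
      ext x
      simp [T']
    rw [h1]
    exact (isClosed_iUnion_of_finite fun t => isClosed_closure.inter (hKc t i)).union
      ((hc i).inter hNo.isClosed_compl)
  · by_cases hwN : w ∈ N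
    · obtain ⟨d, hd, hwd⟩ := hwN
      have h1 : w ∈ closure (B (s (lab d))) := subset_closure ⟨d, hd, hwd, rfl⟩
      have h2 := hgoodball d hd w hwd
      have h3 := hr0 (lab d)
      obtain ⟨i, hi⟩ := (hK (s (lab d)) w (hr (lab d) w (by linarith)).1).1
      exact ⟨i, Or.inl ⟨_, h1, hi⟩⟩
    · obtain ⟨i, hi⟩ := hn w
      exact ⟨i, Or.inr ⟨hi, hwN⟩⟩
  · by_cases hwN : w ∈ N
    · obtain ⟨d, hd, hwd⟩ := hwN
      have h1 : T' w ⊆ s (lab d) := by
        rintro i (⟨t, ht, hi⟩ | ⟨-, hi⟩)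
        · rw [← halpha t w ht d hd hwd]
          exact hKs t w hi
        · exact absurd ⟨d, hd, hwd⟩ hi
      have h2 := hgoodball d hd w hwd
      have h3 := hr0 (lab d)
      exact ((Set.ncard_le_ncard h1 (Set.toFinite _)).trans (hsel (lab d)).1).trans
        (hr (lab d) w (by linarith)).2
    · have h1 : w ∉ Z := by
        intro hwZ
        exact hwN ⟨w, hwZ, by rw [dist_self]; exact hρ0 w⟩
      exact (Set.ncard_le_ncard (hT's w) (Set.toFinite _)).trans (hZν w h1)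

/-- one step of the minimization, with order function `ν` -/
theorem min_step_lsc {P : ℂ → Set ι} {K : Set ι → ℂ → Set ι}
    (hKs : ∀ s x, K s x ⊆ s) (hKc : ∀ s i, IsClosed {x | i ∈ K s x})
    (hK : ∀ s x, (∃ i ∈ s, i ∈ P x) → (K s x).Nonempty ∧ K s x ⊆ P x)
    {Z : Set ℂ} (hZ : IsClosed Z) (hZd : IsTotallyDisconnected Z) {n : ℕ}
    (hZn : ∀ x, x ∉ Z → (P x).ncard ≤ n) {ν : ℂ → ℕ} (hlsc : ∀ x, ∀ᶠ w in 𝓝 x, ν x ≤ ν w)
    (hZν : ∀ x, x ∉ Z → (P x).ncard ≤ ν x)
    {T : ℂ → Set ι} (hc : ∀ i, IsClosed {x | i ∈ T x}) (hn : ∀ x, (T x).Nonempty)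
    (hs : ∀ x, T x ⊆ P x) (hν : ∀ x, (T x).ncard ≤ ν x)
    (hT : ∀ x, (T x).ncard ≤ n + 1 ∨ MinAt P (T x) x) :
    ∃ T' : ℂ → Set ι, (∀ i, IsClosed {x | i ∈ T' x}) ∧ (∀ x, (T' x).Nonempty) ∧
      (∀ x, T' x ⊆ P x) ∧ (∀ x, (T' x).ncard ≤ ν x) ∧
        ∀ x, (T' x).ncard ≤ n ∨ MinAt P (T' x) x := by
  classical
  set X : Set ℂ := {x | n + 1 ≤ (T x).ncard ∧ MinAt P (T x) x} with hX
  have hXc : IsClosed X := by
    rw [← isOpen_compl_iff, isOpen_iff_mem_nhds]
    intro x hx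
    by_cases h1 : (T x).ncard ≤ n
    · filter_upwards [nhd_of_closed hc x] with w hw hwX
      have h2 := Set.ncard_le_ncard hw (Set.toFinite _)
      have h3 := hwX.1
      omega
    · have h2 : ¬ MinAt P (T x) x := fun h3 => hx ⟨by omega, h3⟩
      have h4 : (T x).ncard ≤ n + 1 := (hT x).resolve_right h2
      unfold MinAt at h2
      push Not at h2
      obtain ⟨s, hsT, hsuf, hne⟩ := h2
      filter_upwards [nhd_of_closed hc x, hsuf.nhd] with w hw hw' hwX
      have h5 : T w = T x := Set.eq_of_subset_of_ncard_le hw (h4.trans hwX.1) (Set.toFinite _)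
      exact hne ((hwX.2 s (by rw [h5]; exact hsT) hw').trans h5)
  -- a sufficient palette with at most `n` colours off `X`
  have hsel : ∀ x, ∃ s : Set ι, x ∉ X → s ⊆ T x ∧ s.ncard ≤ n ∧ Suff P s x := by
    intro x
    by_cases h1 : (T x).ncard ≤ n
    · exact ⟨T x, fun _ => ⟨Subset.rfl, h1, suff_self hc hn hs x⟩⟩
    · by_cases h2 : MinAt P (T x) x
      · exact ⟨∅, fun hx => absurd ⟨by omega, h2⟩ hx⟩
      · have h4 : (T x).ncard ≤ n + 1 := (hT x).resolve_right h2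
        unfold MinAt at h2
        push Not at h2
        obtain ⟨s, hsT, hsuf, hne⟩ := h2
        have h5 := Set.ncard_lt_ncard (hsT.ssubset_of_ne hne) (Set.toFinite _)
        exact ⟨s, fun _ => ⟨hsT, by omega, hsuf⟩⟩
  choose s hsel using hsel
  have hrad : ∀ x, ∃ r : ℝ, 0 < r ∧ (x ∉ X → (∀ w, dist w x < r →
      (∃ i ∈ s x, i ∈ P w) ∧ ν x ≤ ν w) ∧ ∀ p ∈ X, 2 * r ≤ dist x p) := by
    intro x
    by_cases hx : x ∈ X
    · exact ⟨1, one_pos, fun h => absurd hx h⟩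
    · obtain ⟨r, hr, hball⟩ := Metric.mem_nhds_iff.1 (((hsel x hx).2.2 : ∀ᶠ w in 𝓝 x, _).and
        (hlsc x))
      obtain ⟨r', hr', hball'⟩ := Metric.mem_nhds_iff.1 (hXc.isOpen_compl.mem_nhds hx)
      refine ⟨min r (r' / 2), lt_min hr (by positivity), fun _ => ⟨fun w hw => ?_, fun p hp => ?_⟩⟩
      · exact hball (mem_ball.2 (lt_of_lt_of_le hw (min_le_left _ _)))
      · by_contra hcon
        push Not at hcon
        refine hball' (mem_ball.2 ?_) hp
        rw [dist_comm]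
        have := min_le_right r (r' / 2)
        linarith
  choose r hr0 hr using hrad
  set D : Set ℂ := Z \ X with hD
  have hDl : IsLocallyClosed D := by
    rw [hD, sdiff_eq]
    exact hZ.isLocallyClosed.inter hXc.isOpen_compl.isLocallyClosed
  obtain ⟨lab, hlab, hloc⟩ := exists_lab hDl (fun t ht htp => hZd t (ht.trans sdiff_subset) htp)
    (fun x => r x / 2) (fun x _ => half_pos (hr0 x))
  have hrho : ∀ d, ∃ ρ : ℝ, 0 < ρ ∧ (d ∈ D → dist d (lab d) + ρ ≤ r (lab d) / 2 ∧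
      ∀ d' ∈ D, dist d' d < 2 * ρ → lab d' = lab d) := by
    intro d
    by_cases hd : d ∈ D
    · obtain ⟨q, hq, hball⟩ := Metric.mem_nhds_iff.1 (hloc d hd)
      have h1 := (hlab d hd).2
      refine ⟨min (q / 2) (r (lab d) / 2 - dist d (lab d)), lt_min (by positivity) (by linarith),
        fun _ => ⟨?_, fun d' hd' hdd => ?_⟩⟩
      · have := min_le_right (q / 2) (r (lab d) / 2 - dist d (lab d))
        linarith
      · refine hball (mem_ball.2 ?_) hd'
        have := min_le_left (q / 2) (r (lab d) / 2 - dist d (lab d))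
        linarith
    · exact ⟨1, one_pos, fun h => absurd h hd⟩
  choose ρ hρ0 hρ using hrho
  -- the regions
  set B : Set ι → Set ℂ := fun t => {w | ∃ d ∈ D, dist w d < ρ d ∧ s (lab d) = t} with hB
  set N : Set ℂ := {w | ∃ d ∈ D, dist w d < ρ d} with hN
  have hNo : IsOpen N := by
    have : N = ⋃ d ∈ D, ball d (ρ d) := by ext w; simp [N]
    rw [this]
    exact isOpen_biUnion fun d _ => isOpen_ball
  have hlabX : ∀ d ∈ D, lab d ∉ X := fun d hd => (hlab d hd).1.2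
  -- two balls which meet have the same label
  have hsame : ∀ d ∈ D, ∀ d' ∈ D, ∀ w, dist w d < ρ d → dist w d' < ρ d' → lab d = lab d' := by
    intro d hd d' hd' w hw hw'
    have h1 := dist_triangle_left d d' w
    have h2 := dist_triangle_left d' d w
    rcases le_total (ρ d) (ρ d') with h | h
    · exact (hρ d' hd').2 d hd (by linarith)
    · exact ((hρ d hd).2 d' hd' (by linarith)).symm
  have hgoodball : ∀ d ∈ D, ∀ w, dist w d < ρ d → dist w (lab d) < r (lab d) / 2 := by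
    intro d hd w hw
    have h1 := (hρ d hd).1
    have h2 := dist_triangle w d (lab d)
    linarith
  have hgood : ∀ d ∈ D, ∀ w, dist w (lab d) < r (lab d) → ∃ i ∈ s (lab d), i ∈ P w := by
    intro d hd w hw
    exact ((hr (lab d) (hlabX d hd)).1 w hw).1
  have hgoodν : ∀ d ∈ D, ∀ w, dist w (lab d) < r (lab d) → ν (lab d) ≤ ν w := by
    intro d hd w hw
    exact ((hr (lab d) (hlabX d hd)).1 w hw).2
  -- (alpha)
  have halpha : ∀ t, ∀ w ∈ closure (B t), ∀ d ∈ D, dist w d < ρ d → t = s (lab d) := by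
    intro t w hw d hd hwd
    obtain ⟨v, hv, hvB⟩ := mem_closure_iff_nhds.1 hw (ball d (ρ d))
      (isOpen_ball.mem_nhds (mem_ball.2 hwd))
    obtain ⟨d', hd', hvd', rfl⟩ := hvB
    rw [hsame d' hd' d hd v hvd' (mem_ball.1 hv)]
  -- (beta)
  have hbeta : ∀ t, ∀ w ∈ closure (B t), w ∉ X → ∃ i ∈ t, i ∈ P w := by
    intro t w hw hwX
    by_cases hwD : w ∈ D
    · have h1 : dist w w < ρ w := by rw [dist_self]; exact hρ0 w
      rw [halpha t w hw w hwD h1]
      refine hgood w hwD w ?_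
      have := hgoodball w hwD w h1
      have := hr0 (lab w)
      linarith
    · have hwZ : w ∉ Z ∪ X := fun h => h.elim (fun h => hwD ⟨h, hwX⟩) hwX
      obtain ⟨η, hη, hball⟩ := Metric.mem_nhds_iff.1 ((hZ.union hXc).isOpen_compl.mem_nhds hwZ)
      obtain ⟨v, hv, d, hd, hvd, rfl⟩ := mem_closure_iff_nhds.1 hw (ball w (η / 2))
        (ball_mem_nhds w (by positivity))
      have h1 : η ≤ dist (lab d) w := by
        by_contra hcon
        push Not at hcon
        exact hball (mem_ball.2 hcon) (Or.inl (hlab d hd).1.1)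
      have h2 := hgoodball d hd v hvd
      have h3 : dist v w < η / 2 := mem_ball.1 hv
      have h4 := dist_triangle_left (lab d) w v
      refine hgood d hd w ?_
      have h5 := dist_triangle_left w (lab d) v
      linarith
  -- (gamma)
  have hgamma : ∀ t, ∀ w ∈ closure (B t), w ∈ X → t ⊆ T w := by
    intro t w hw hwX
    obtain ⟨ε, hε, hball⟩ := Metric.mem_nhds_iff.1 (nhd_of_closed hc w)
    obtain ⟨v, hv, d, hd, hvd, rfl⟩ := mem_closure_iff_nhds.1 hw (ball w (ε / 2))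
      (ball_mem_nhds w (by positivity))
    have h2 := hgoodball d hd v hvd
    have h3 : dist v w < ε / 2 := mem_ball.1 hv
    have h4 := (hr (lab d) (hlabX d hd)).2 w hwX
    have h5 := dist_triangle_left (lab d) w v
    have h6 : dist (lab d) w < ε := by linarith
    exact ((hsel (lab d) (hlabX d hd)).1).trans (hball (mem_ball.2 h6))
  -- the new palettes
  let T' : ℂ → Set ι := fun w => {i | (∃ t, w ∈ closure (B t) ∧ i ∈ K t w) ∨ (i ∈ T w ∧ w ∉ N)}
  have hT'X : ∀ w ∈ X, T' w ⊆ T w := by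
    rintro w hw i (⟨t, ht, hi⟩ | ⟨hi, -⟩)
    · exact hgamma t w ht hw (hKs t w hi)
    · exact hi
  have hT'c : ∀ i, IsClosed {x | i ∈ T' x} := by
    intro i
    have h1 : {x | i ∈ T' x} = (⋃ t, closure (B t) ∩ {x | i ∈ K t x}) ∪ ({x | i ∈ T x} ∩ Nᶜ) := by
      ext x
      simp [T']
    rw [h1]
    exact (isClosed_iUnion_of_finite fun t => isClosed_closure.inter (hKc t i)).union
      ((hc i).inter hNo.isClosed_compl)
  have hT's : ∀ x, T' x ⊆ P x := by
    rintro w i (⟨t, ht, hi⟩ | ⟨hi, -⟩)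
    · by_cases hwX : w ∈ X
      · exact hs w (hgamma t w ht hwX (hKs t w hi))
      · exact (hK t w (hbeta t w ht hwX)).2 hi
    · exact hs w hi
  have hT'n : ∀ x, (T' x).Nonempty := by
    intro w
    by_cases hwN : w ∈ N
    · obtain ⟨d, hd, hwd⟩ := hwN
      have h1 : w ∈ closure (B (s (lab d))) := subset_closure ⟨d, hd, hwd, rfl⟩
      have h2 := hgoodball d hd w hwd
      have h3 := hr0 (lab d)
      obtain ⟨i, hi⟩ := (hK (s (lab d)) w (hgood d hd w (by linarith))).1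
      exact ⟨i, Or.inl ⟨_, h1, hi⟩⟩
    · obtain ⟨i, hi⟩ := hn w
      exact ⟨i, Or.inr ⟨hi, hwN⟩⟩
  have hT'N : ∀ d ∈ D, ∀ w, dist w d < ρ d → T' w ⊆ s (lab d) := by
    rintro d hd w hwd i (⟨t, ht, hi⟩ | ⟨-, hi⟩)
    · rw [← halpha t w ht d hd hwd]
      exact hKs t w hi
    · exact absurd ⟨d, hd, hwd⟩ hi
  refine ⟨T', hT'c, hT'n, hT's, fun w => ?_, fun w => ?_⟩
  · by_cases hwX : w ∈ X
    · exact (Set.ncard_le_ncard (hT'X w hwX) (Set.toFinite _)).trans (hν w)
    · by_cases hwN : w ∈ N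
      · obtain ⟨d, hd, hwd⟩ := hwN
        have h2 := hgoodball d hd w hwd
        have h3 := hr0 (lab d)
        refine (Set.ncard_le_ncard (hT'N d hd w hwd) (Set.toFinite _)).trans ?_
        refine (Set.ncard_le_ncard (hsel (lab d) (hlabX d hd)).1 (Set.toFinite _)).trans ?_
        exact (hν (lab d)).trans (hgoodν d hd w (by linarith))
      · have h1 : w ∉ Z := by
          intro hwZ
          exact hwN ⟨w, ⟨hwZ, hwX⟩, by rw [dist_self]; exact hρ0 w⟩
        exact (Set.ncard_le_ncard (hT's w) (Set.toFinite _)).trans (hZν w h1)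
  by_cases hwX : w ∈ X
  · right
    have h1 : T' w = T w := hwX.2 (T' w) (hT'X w hwX) (suff_self hT'c hT'n hT's w)
    rw [h1]
    exact hwX.2
  · left
    by_cases hwN : w ∈ N
    · obtain ⟨d, hd, hwd⟩ := hwN
      have h1 : T' w ⊆ s (lab d) := by
        rintro i (⟨t, ht, hi⟩ | ⟨-, hi⟩)
        · rw [← halpha t w ht d hd hwd]
          exact hKs t w hi
        · exact absurd ⟨d, hd, hwd⟩ hi
      exact (Set.ncard_le_ncard h1 (Set.toFinite _)).trans (hsel (lab d) (hlabX d hd)).2.1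
    · have h1 : w ∉ Z := by
        intro hwZ
        exact hwN ⟨w, ⟨hwZ, hwX⟩, by rw [dist_self]; exact hρ0 w⟩
      exact (Set.ncard_le_ncard (hT's w) (Set.toFinite _)).trans (hZn w h1)

/-- **minimal covers with order function `ν`** -/
theorem exists_min_cover_lsc {P : ℂ → Set ι} {K : Set ι → ℂ → Set ι}
    (hKs : ∀ s x, K s x ⊆ s) (hKc : ∀ s i, IsClosed {x | i ∈ K s x})
    (hK : ∀ s x, (∃ i ∈ s, i ∈ P x) → (K s x).Nonempty ∧ K s x ⊆ P x)
    {Z : Set ℂ} (hZ : IsClosed Z) (hZd : IsTotallyDisconnected Z) {n : ℕ}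
    (hZn : ∀ x, x ∉ Z → (P x).ncard ≤ n)
    {ν : ℂ → ℕ} (hlsc : ∀ x, ∀ᶠ w in 𝓝 x, ν x ≤ ν w) (hnν : ∀ x, n ≤ ν x)
    {T : ℂ → Set ι} (hc : ∀ i, IsClosed {x | i ∈ T x}) (hn : ∀ x, (T x).Nonempty)
    (hs : ∀ x, T x ⊆ P x) (hsuf : ∀ x, ∃ s : Set ι, s.ncard ≤ ν x ∧ Suff P s x) :
    ∃ T' : ℂ → Set ι, (∀ i, IsClosed {x | i ∈ T' x}) ∧ (∀ x, (T' x).Nonempty) ∧
      (∀ x, T' x ⊆ P x) ∧ (∀ x, ∀ i ∈ T' x, ∃ᶠ w in 𝓝 x, T' w = {i}) ∧
        (∀ x, (T' x).ncard ≤ ν x) ∧ ∀ x, n < (T' x).ncard → MinAt P (T' x) x := by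
  classical
  have hZν : ∀ x, x ∉ Z → (P x).ncard ≤ ν x := fun x hx => (hZn x hx).trans (hnν x)
  have key : ∀ m, ∃ T' : ℂ → Set ι, (∀ i, IsClosed {x | i ∈ T' x}) ∧ (∀ x, (T' x).Nonempty) ∧
      (∀ x, T' x ⊆ P x) ∧ (∀ x, (T' x).ncard ≤ ν x) ∧
        ∀ x, (T' x).ncard ≤ n + (Nat.card ι - m) ∨ MinAt P (T' x) x := by
    intro m
    induction m with
    | zero =>
      obtain ⟨T', hc', hn', hs', hT'⟩ := cover_step_lsc hKs hKc hK hZ hZd hlsc hZν hc hn hs hsuf
      refine ⟨T', hc', hn', hs', hT', fun x => Or.inl ?_⟩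
      have h1 := Set.ncard_le_card (T' x)
      omega
    | succ m ih =>
      obtain ⟨T', hc', hn', hs', hν', hT'⟩ := ih
      by_cases hm : Nat.card ι ≤ m
      · refine ⟨T', hc', hn', hs', hν', fun x => ?_⟩
        rcases hT' x with h1 | h1
        · left; omega
        · exact Or.inr h1
      · refine min_step_lsc hKs hKc hK hZ hZd (n := n + (Nat.card ι - (m + 1)))
          (fun x hx => (hZn x hx).trans (by omega)) hlsc hZν hc' hn' hs' hν' fun x => ?_
        rcases hT' x with h1 | h1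
        · left; omega
        · exact Or.inr h1
  obtain ⟨T₁, hc₁, hn₁, hs₁, hν₁, hT₁⟩ := key (Nat.card ι)
  obtain ⟨T', hc', hn', hs', hp⟩ := exists_pure T₁ hc₁ hn₁
  have hsP : ∀ x, T' x ⊆ P x := fun x => (hs' x).trans (hs₁ x)
  refine ⟨T', hc', hn', hsP, hp,
    fun x => (Set.ncard_le_ncard (hs' x) (Set.toFinite _)).trans (hν₁ x), fun x hx => ?_⟩
  have h1 : MinAt P (T₁ x) x := by
    refine (hT₁ x).resolve_left fun h2 => ?_
    have h3 := Set.ncard_le_ncard (hs' x) (Set.toFinite _)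
    omega
  have h2 : T' x = T₁ x := h1 (T' x) (hs' x) (suff_self hc' hn' hsP x)
  rw [h2]
  exact h1

/-- **Existence with a lower semicontinuous order function.** -/
theorem exists_irr_min_lsc {U : Fin 6 → Set ℂ} (h : Mx U)
    (hmax : ∀ i x, (∀ y ∈ closure (U i), dist x y ≠ 1) → x ∈ U i)
    (ν : ℂ → ℕ) (hν : ∀ x, 3 ≤ ν x) (hlsc : ∀ x, ∀ᶠ w in 𝓝 x, ν x ≤ ν w)
    (hsuf : ∀ x, ∃ s : Set (Fin 6), s.ncard ≤ ν x ∧
      ∀ᶠ w in 𝓝 x, ∃ i ∈ s, w ∈ U i ∨ (w ∈ XX U ∧ i ∈ Pal U w)) :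
    ∃ T, Irr U T ∧
      (∀ z, 4 ≤ (T z).ncard → ∀ s, s ⊆ T z → s ≠ T z →
        ¬ ∀ᶠ w in 𝓝 z, ∃ i ∈ s, w ∈ U i ∨ (w ∈ XX U ∧ i ∈ Pal U w)) ∧
      ∀ x, (T x).ncard ≤ ν x := by
  classical
  obtain ⟨hZ, hZd⟩ := td_XX h
  have hZn : ∀ x, x ∉ XX U ∩ {x | 4 ≤ (Pal U x).ncard} → (PU U x).ncard ≤ 3 := by
    intro x hx
    by_cases hX : x ∈ XX U
    · have h1 : ¬ 4 ≤ (Pal U x).ncard := fun h4 => hx ⟨hX, h4⟩
      have h2 := Set.ncard_le_ncard (s := PU U x) (t := Pal U x) (fun i hi => hi.1)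
        (Set.toFinite _)
      omega
    · exact (Set.ncard_le_ncard (t := {i | x ∈ U i}) (fun i hi => hi.2 hX)
        (Set.toFinite _)).trans (h.K0_three x)
  have hsuf' : ∀ x, ∃ s : Set (Fin 6), s.ncard ≤ ν x ∧ Suff (PU U) s x := by
    intro x
    obtain ⟨s, hs, hev⟩ := hsuf x
    exact ⟨s, hs, hev.mono fun w ⟨i, hi, hw⟩ => ⟨i, hi, suf_colour_iff.2 hw⟩⟩
  obtain ⟨T, hc, hn, hs, hp, hle, hm⟩ := exists_min_cover_lsc (P := PU U) (K := Ks U)
    (fun s x i hi => hi.1) (fun s i => Ks_closed U s i) (fun s x hx => Ks_good h s x hx)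
    hZ hZd (n := 3) hZn hlsc hν (T := Kst U) (isClosed_Fst U) h.Kst_nonempty
    (fun x i hi => ⟨Kst_sub x hi, fun hX => h.Kst_mem hX hi⟩) hsuf'
  refine ⟨T, ⟨h, hmax, hc, hn, fun x i hi => (hs x hi).1, fun x hX i hi => (hs x hi).2 hX, hp⟩,
    hmin_iff.1 fun z hz s hsz hev => hm z hz s hsz hev, hle⟩

/-- **A closed set without unit pairs has an open neighbourhood without unit pairs.** -/
theorem exists_open_no_unit {C : Set ℂ} (hC : IsClosed C)
    (hu : ∀ x ∈ C, ∀ y ∈ C, dist x y ≠ 1) :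
    ∃ O : Set ℂ, IsOpen O ∧ C ⊆ O ∧ ∀ x ∈ O, ∀ y ∈ O, dist x y ≠ 1 := by
  classical
  have hδ : ∀ x : ℂ, ∃ δ : ℝ, 0 < δ ∧ δ ≤ 1 ∧
      (x ∈ C → ∀ y ∈ C, δ ≤ |dist x y - 1|) := by
    intro x
    by_cases hx : x ∈ C
    · -- the compact part of `C` near `x`
      have hK : IsCompact (C ∩ closedBall x 2) := (isCompact_closedBall x 2).inter_left hC
      rcases (C ∩ closedBall x 2).eq_empty_or_nonempty with he | hne
      · refine ⟨1, one_pos, le_rfl, fun _ y hy => ?_⟩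
        have h1 : ¬ dist y x ≤ 2 := fun h2 => by
          have : y ∈ C ∩ closedBall x 2 := ⟨hy, h2⟩
          rw [he] at this
          exact this
        rw [dist_comm y x] at h1
        rw [le_abs]
        left
        linarith
      · obtain ⟨y₀, hy₀, hmin⟩ := hK.exists_isMinOn hne
          (f := fun y => |dist x y - 1|) (by fun_prop)
        have h0 : 0 < |dist x y₀ - 1| := abs_pos.2 (sub_ne_zero.2 (hu x hx y₀ hy₀.1))
        refine ⟨min 1 |dist x y₀ - 1|, lt_min one_pos h0, min_le_left _ _, fun _ y hy => ?_⟩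
        by_cases h2 : dist y x ≤ 2
        · exact (min_le_right _ _).trans (hmin (show y ∈ C ∩ closedBall x 2 from ⟨hy, h2⟩))
        · refine (min_le_left _ _).trans ?_
          rw [dist_comm y x] at h2
          rw [le_abs]
          left
          linarith
    · exact ⟨1, one_pos, le_rfl, fun h => absurd h hx⟩
  choose δ hδ0 hδ1 hδ using hδ
  refine ⟨⋃ x ∈ C, ball x (δ x / 4), isOpen_biUnion fun x _ => isOpen_ball, fun x hx => ?_, ?_⟩
  · exact mem_iUnion₂.2 ⟨x, hx, mem_ball_self (by have := hδ0 x; positivity)⟩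
  · intro w hw w' hw' hww
    obtain ⟨x, hx, hwx⟩ := mem_iUnion₂.1 hw
    obtain ⟨x', hx', hwx'⟩ := mem_iUnion₂.1 hw'
    have h1 := mem_ball.1 hwx
    have h2 := mem_ball.1 hwx'
    have h3 := hδ x hx x' hx'
    have h4 := hδ x' hx' x hx
    rw [dist_comm x' x] at h4
    have h5 : dist w w' ≤ dist w x + dist x x' + dist x' w' := dist_triangle4 w x x' w'
    have h6 : dist x x' ≤ dist x w + dist w w' + dist w' x' := dist_triangle4 x w w' x'
    rw [dist_comm x' w'] at h5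
    rw [dist_comm x w] at h6
    have h7 : |dist x x' - 1| < δ x / 4 + δ x' / 4 := by
      rw [abs_lt]
      constructor <;> linarith
    have h8 := hδ0 x
    have h9 := hδ0 x'
    linarith

/-- **The frame without unit pairs of four-coloured points.** -/
theorem exists_irr_min_pair {U : Fin 6 → Set ℂ} (h : Mx U)
    (hmax : ∀ i x, (∀ y ∈ closure (U i), dist x y ≠ 1) → x ∈ U i)
    (h4 : ∀ z, ∃ s : Set (Fin 6), s.ncard ≤ 4 ∧
      ∀ᶠ w in 𝓝 z, ∃ i ∈ s, w ∈ U i ∨ (w ∈ XX U ∧ i ∈ Pal U w))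
    (hu : ∀ z z', dist z z' = 1 → ∃ y, (y = z ∨ y = z') ∧ ∃ s : Set (Fin 6), s.ncard ≤ 3 ∧
      ∀ᶠ w in 𝓝 y, ∃ i ∈ s, w ∈ U i ∨ (w ∈ XX U ∧ i ∈ Pal U w)) :
    ∃ T, Irr U T ∧
      (∀ z, 4 ≤ (T z).ncard → ∀ s, s ⊆ T z → s ≠ T z →
        ¬ ∀ᶠ w in 𝓝 z, ∃ i ∈ s, w ∈ U i ∨ (w ∈ XX U ∧ i ∈ Pal U w)) ∧
      (∀ z, (T z).ncard ≤ 4) ∧
      ∀ z z', dist z z' = 1 → 4 ≤ (T z).ncard → 4 ≤ (T z').ncard → False := by
  classical
  -- the points at which no three colours suffice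
  set C : Set ℂ := {z | ∀ s : Set (Fin 6), s.ncard ≤ 3 →
    ¬ ∀ᶠ w in 𝓝 z, ∃ i ∈ s, w ∈ U i ∨ (w ∈ XX U ∧ i ∈ Pal U w)} with hC
  have hCc : IsClosed C := by
    rw [← isOpen_compl_iff, isOpen_iff_mem_nhds]
    intro z hz
    have hz' : ¬ ∀ s : Set (Fin 6), s.ncard ≤ 3 →
      ¬ ∀ᶠ w in 𝓝 z, ∃ i ∈ s, w ∈ U i ∨ (w ∈ XX U ∧ i ∈ Pal U w) := hz
    push Not at hz'
    obtain ⟨s, hs, hev⟩ := hz'
    filter_upwards [eventually_eventually_nhds.2 hev] with w hw hwC
    exact hwC s hs hw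
  obtain ⟨O, hO, hCO, hOu⟩ := exists_open_no_unit hCc (by
    intro x hx y hy hxy
    obtain ⟨v, hv, s, hs, hev⟩ := hu x y hxy
    rcases hv with rfl | rfl
    · exact hx s hs hev
    · exact hy s hs hev)
  obtain ⟨T, hT, hmin, hle⟩ := exists_irr_min_lsc h hmax (fun x => if x ∈ O then 4 else 3)
    (fun x => by
      show 3 ≤ (if x ∈ O then 4 else 3)
      split_ifs <;> omega)
    (fun x => by
      by_cases hx : x ∈ O
      · filter_upwards [hO.mem_nhds hx] with w hw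
        simp [hx, hw]
      · refine Eventually.of_forall fun w => ?_
        simp only [hx, if_false]
        split_ifs <;> omega)
    (fun x => by
      by_cases hx : x ∈ O
      · simpa only [hx, if_true] using h4 x
      · have hxC : x ∉ C := fun h => hx (hCO h)
        have hx' : ¬ ∀ s : Set (Fin 6), s.ncard ≤ 3 →
          ¬ ∀ᶠ w in 𝓝 x, ∃ i ∈ s, w ∈ U i ∨ (w ∈ XX U ∧ i ∈ Pal U w) := hxC
        push Not at hx'
        obtain ⟨s, hs, hev⟩ := hx'
        exact ⟨s, by simpa only [hx, if_false] using hs, hev⟩)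
  have hmem : ∀ z, 4 ≤ (T z).ncard → z ∈ O := by
    intro z hz
    by_contra hcon
    have h1 := hle z
    simp only [hcon, if_false] at h1
    omega
  refine ⟨T, hT, hmin, fun z => (hle z).trans ?_, fun z z' hzz hz hz' => ?_⟩
  · show (if z ∈ O then 4 else 3) ≤ 4
    split_ifs <;> omega
  · exact hOu z (hmem z hz) z' (hmem z' hz') hzz

end Vale.Agent.P032.S5.H281
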